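import Mathlib
import Vale.Agent.Lib.P129.Defs
import Vale.Agent.Lib.P129.Reduction

/-!
# The separable quotient problem reduces to spaces with a countable separating family of functionals

Every infinite-dimensional Banach space (over `ℝ` or `ℂ`) has a separable infinite-dimensional
quotient if and only if this holds for those infinite-dimensional Banach spaces `Y` that carry a
sequence of continuous linear functionals separating the points of `Y` (equivalently, whose dual
is weak-star separable, or which inject continuously and linearly into a separable Hilbert space).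
-/

namespace Vale.Agent.Results.P129.CountablySeparated

open Vale.Agent.Lib.P129

universe u

theorem result {𝕜 : Type*} [RCLike 𝕜] :
    (∀ (X : Type u) [NormedAddCommGroup X] [NormedSpace 𝕜 X] [CompleteSpace X],
        ¬ FiniteDimensional 𝕜 X → HasSepQuotient 𝕜 X) ↔
    (∀ (Y : Type u) [NormedAddCommGroup Y] [NormedSpace 𝕜 Y] [CompleteSpace Y],
        ¬ FiniteDimensional 𝕜 Y →
        (∃ f : ℕ → (Y →L[𝕜] 𝕜), ∀ y : Y, (∀ n, f n y = 0) → y = 0) →
        HasSepQuotient 𝕜 Y) :=
  ⟨fun h Y _ _ _ hY _ => h Y hY, fun H X _ _ _ hX => reduction H X hX⟩

end Vale.Agent.Results.P129.CountablySeparated
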